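import Mathlib

namespace Vale.Agent.Results.P084.StrictlyConvexAntipodes

open scoped RealInnerProductSpace

/-- In a strictly convex space the only unit vector at distance two from a unit vector is its
antipode. -/
theorem eq_neg_of_dist_two {E : Type*} [NormedAddCommGroup E] [NormedSpace ℝ E]
    [StrictConvexSpace ℝ E] (x y : E) (hx : ‖x‖ = 1) (hy : ‖y‖ = 1) (h : ‖x - y‖ = 2) :
    y = -x := by
  have h1 : ‖x‖ = ‖-y‖ := by rw [norm_neg, hx, hy]
  have h2 : ‖x + -y‖ = ‖x‖ + ‖-y‖ := by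
    rw [← sub_eq_add_neg, h, norm_neg, hx, hy]
    norm_num
  have h3 : x = -y := eq_of_norm_eq_of_norm_add_eq h1 h2
  rw [h3, neg_neg]

/-- Antipodal points go to antipodal points when the domain or the target is strictly
convex. -/
theorem antipodal {X Y : Type*} [NormedAddCommGroup X] [NormedSpace ℝ X]
    [NormedAddCommGroup Y] [NormedSpace ℝ Y] (f : X → Y)
    (hmaps : ∀ x, ‖x‖ = 1 → ‖f x‖ = 1)
    (hiso : ∀ x y, ‖x‖ = 1 → ‖y‖ = 1 → ‖f x - f y‖ = ‖x - y‖)
    (hsurj : ∀ y, ‖y‖ = 1 → ∃ x, ‖x‖ = 1 ∧ f x = y)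
    (hsc : StrictConvexSpace ℝ X ∨ StrictConvexSpace ℝ Y) (x : X) (hx : ‖x‖ = 1) :
    f (-x) = -f x := by
  have hnx : ‖-x‖ = 1 := by rw [norm_neg, hx]
  have h2x : ‖x - -x‖ = 2 := by
    have e : x - -x = (2 : ℝ) • x := by
      rw [sub_neg_eq_add, two_smul]
    rw [e, norm_smul, hx]
    norm_num
  rcases hsc with hX | hY
  · obtain ⟨z, hz, hfz⟩ := hsurj (-f x) (by rw [norm_neg, hmaps x hx])
    have h3 : ‖x - z‖ = 2 := by
      rw [← hiso x z hx hz, hfz]
      have e : f x - -f x = (2 : ℝ) • f x := by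
        rw [sub_neg_eq_add, two_smul]
      rw [e, norm_smul, hmaps x hx]
      norm_num
    have h4 : z = -x := eq_neg_of_dist_two x z hx hz h3
    rw [← h4, hfz]
  · have h3 : ‖f x - f (-x)‖ = 2 := by rw [hiso x (-x) hx hnx, h2x]
    exact eq_neg_of_dist_two (f x) (f (-x)) (hmaps x hx) (hmaps (-x) hnx) h3

/-- Between inner product spaces every surjective isometry of the unit spheres is the
restriction of a linear isometry of the whole spaces. -/
theorem inner_case {X Y : Type*} [NormedAddCommGroup X] [InnerProductSpace ℝ X]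
    [NormedAddCommGroup Y] [InnerProductSpace ℝ Y] (f : X → Y)
    (hmaps : ∀ x, ‖x‖ = 1 → ‖f x‖ = 1)
    (hiso : ∀ x y, ‖x‖ = 1 → ‖y‖ = 1 → ‖f x - f y‖ = ‖x - y‖)
    (hsurj : ∀ y, ‖y‖ = 1 → ∃ x, ‖x‖ = 1 ∧ f x = y) :
    ∃ T : X ≃ₗᵢ[ℝ] Y, ∀ x, ‖x‖ = 1 → T x = f x := by
  -- inner products of unit vectors are preserved
  have hin : ∀ u v : X, ‖u‖ = 1 → ‖v‖ = 1 → ⟪f u, f v⟫ = ⟪u, v⟫ := by
    intro u v hu hv
    have h1 := hiso u v hu hv
    have h2 : ‖f u - f v‖ ^ 2 = ‖u - v‖ ^ 2 := by rw [h1]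
    rw [norm_sub_sq_real, norm_sub_sq_real, hmaps u hu, hmaps v hv, hu, hv] at h2
    linarith
  -- the positively homogeneous extension
  set F : X → Y := fun a => ‖a‖ • f (‖a‖⁻¹ • a) with hF
  have hunit : ∀ a : X, a ≠ 0 → ‖‖a‖⁻¹ • a‖ = 1 := by
    intro a ha
    rw [norm_smul, norm_inv, norm_norm, inv_mul_cancel₀ (norm_ne_zero_iff.2 ha)]
  have hF0 : F 0 = 0 := by
    show ‖(0 : X)‖ • f (‖(0 : X)‖⁻¹ • (0 : X)) = 0
    rw [norm_zero, zero_smul]
  have hFin : ∀ a b : X, ⟪F a, F b⟫ = ⟪a, b⟫ := by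
    intro a b
    by_cases ha : a = 0
    · rw [ha, hF0, inner_zero_left, inner_zero_left]
    by_cases hb : b = 0
    · rw [hb, hF0, inner_zero_right, inner_zero_right]
    show ⟪‖a‖ • f (‖a‖⁻¹ • a), ‖b‖ • f (‖b‖⁻¹ • b)⟫ = ⟪a, b⟫
    rw [real_inner_smul_left, real_inner_smul_right, hin _ _ (hunit a ha) (hunit b hb),
      real_inner_smul_left, real_inner_smul_right]
    have hna := norm_ne_zero_iff.2 ha
    have hnb := norm_ne_zero_iff.2 hb
    field_simp
  have hFunit : ∀ x : X, ‖x‖ = 1 → F x = f x := by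
    intro x hx
    show ‖x‖ • f (‖x‖⁻¹ • x) = f x
    rw [hx, inv_one, one_smul, one_smul]
  have hadd : ∀ a b : X, F (a + b) = F a + F b := by
    intro a b
    have h0 : ‖F (a + b) - F a - F b‖ ^ 2 = 0 := by
      rw [← real_inner_self_eq_norm_sq]
      simp only [inner_sub_left, inner_sub_right, hFin, inner_add_left, inner_add_right]
      ring
    have h1 : F (a + b) - F a - F b = 0 := by
      rw [← norm_eq_zero]
      exact pow_eq_zero_iff (two_ne_zero) |>.1 h0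
    rw [sub_sub, sub_eq_zero] at h1
    exact h1
  have hsmul : ∀ (c : ℝ) (a : X), F (c • a) = c • F a := by
    intro c a
    have h0 : ‖F (c • a) - c • F a‖ ^ 2 = 0 := by
      rw [← real_inner_self_eq_norm_sq]
      simp only [inner_sub_left, inner_sub_right, real_inner_smul_left, real_inner_smul_right,
        hFin]
      ring
    have h1 : F (c • a) - c • F a = 0 := by
      rw [← norm_eq_zero]
      exact pow_eq_zero_iff (two_ne_zero) |>.1 h0
    exact sub_eq_zero.1 h1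
  let L : X →ₗ[ℝ] Y :=
    { toFun := F
      map_add' := hadd
      map_smul' := fun c a => by simpa using hsmul c a }
  let Li : X →ₗᵢ[ℝ] Y := L.isometryOfInner (fun a b => hFin a b)
  have hLsurj : Function.Surjective Li := by
    intro y
    by_cases hy : y = 0
    · exact ⟨0, by rw [hy]; exact map_zero Li⟩
    · have hny := norm_ne_zero_iff.2 hy
      obtain ⟨u, hu, hfu⟩ := hsurj (‖y‖⁻¹ • y) (by
        rw [norm_smul, norm_inv, norm_norm, inv_mul_cancel₀ hny])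
      refine ⟨‖y‖ • u, ?_⟩
      show F (‖y‖ • u) = y
      rw [hsmul, hFunit u hu, hfu, smul_smul, mul_inv_cancel₀ hny, one_smul]
  exact ⟨LinearIsometryEquiv.ofSurjective Li hLsurj, fun x hx => hFunit x hx⟩

/-- Two cases of the extension problem for surjective isometries between unit spheres: the
antipodal property when one of the spaces is strictly convex, and the full linear extension
when both spaces are inner product spaces. -/
theorem result :
    (∀ (X Y : Type) [NormedAddCommGroup X] [NormedSpace ℝ X] [NormedAddCommGroup Y]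
        [NormedSpace ℝ Y] (f : X → Y),
        (∀ x, ‖x‖ = 1 → ‖f x‖ = 1) →
        (∀ x y, ‖x‖ = 1 → ‖y‖ = 1 → ‖f x - f y‖ = ‖x - y‖) →
        (∀ y, ‖y‖ = 1 → ∃ x, ‖x‖ = 1 ∧ f x = y) →
        (StrictConvexSpace ℝ X ∨ StrictConvexSpace ℝ Y) →
        ∀ x, ‖x‖ = 1 → f (-x) = -f x) ∧
    (∀ (X Y : Type) [NormedAddCommGroup X] [InnerProductSpace ℝ X] [NormedAddCommGroup Y]
        [InnerProductSpace ℝ Y] (f : X → Y),
        (∀ x, ‖x‖ = 1 → ‖f x‖ = 1) →
        (∀ x y, ‖x‖ = 1 → ‖y‖ = 1 → ‖f x - f y‖ = ‖x - y‖) →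
        (∀ y, ‖y‖ = 1 → ∃ x, ‖x‖ = 1 ∧ f x = y) →
        ∃ T : X ≃ₗᵢ[ℝ] Y, ∀ x, ‖x‖ = 1 → T x = f x) :=
  ⟨fun _ _ _ _ _ _ f h1 h2 h3 h4 x hx => antipodal f h1 h2 h3 h4 x hx,
   fun _ _ _ _ _ _ f h1 h2 h3 => inner_case f h1 h2 h3⟩

end Vale.Agent.Results.P084.StrictlyConvexAntipodes
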